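import Vale.Agent.P315.H927.XiGlue
import Vale.Agent.P315.H123.BoxArea

/-! The number of cells read by the algorithm of `C/Alg.lean` (additive geometry). -/

set_option autoImplicit false

namespace Vale.Agent.P315.H927

open Finset Vale.Agent.P315.C

variable {P : Par} {mc : Mach} {ω : Rnd} {vis hid : Leaf}

/-- Read sets are nested in the index. -/
theorem rd_mono (j : ℕ) : ∀ (i a : ℕ) {b b' : ℤ}, b ≤ b' →
    rd P mc ω vis hid j i a b ⊆ rd P mc ω vis hid j i a b' := by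
  induction j using Nat.strong_induction_on with
  | _ j ih =>
    intro i a b b' hb
    rcases j with _ | j
    · rw [rd_zero, rd_zero]
      split_ifs with h1 h2
      · exact subset_rfl
      · exact Finset.empty_subset _
      · omega
      · exact subset_rfl
    · rw [rd_succ]
      unfold stepRead
      refine Finset.union_subset_union ?_ ?_
      · intro c hc
        simp only [mem_biUnion, mem_range] at hc ⊢
        obtain ⟨m, hm, a', ha', hc⟩ := hc
        exact ⟨m, hm, a', ha', ih _ (by omega) _ _ (by omega) hc⟩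
      · intro c hc
        simp only [mem_biUnion, mem_range] at hc ⊢
        obtain ⟨s, hs, q, hq, κ, hκ, m, hm, hc⟩ := hc
        exact ⟨s, hs, q, hq, κ, by omega, m, hm, hc⟩

/-- The children of a region. -/
theorem rd_child {j i a : ℕ} {b : ℤ} {m a' : ℕ} (hm : m < P.M) (ha' : a' ∈ P.kids (j + 1) a)
    (hpen : ∀ j e a x, P.pen j e a x = 0) :
    rd P mc ω vis hid j (i * P.M + m) a' (b - ω.xi (j + 1) m) ⊆
      rd P mc ω vis hid (j + 1) i a b := by
  rw [rd_succ]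
  unfold stepRead
  intro c hc
  refine Finset.mem_union_left _ ?_
  simp only [mem_biUnion, mem_range]
  refine ⟨m, hm, a', ha', ?_⟩
  rw [hpen]
  simpa using hc

/-- **Chain lemma.** -/
theorem rd_chain (hM : 0 < P.M) (hpen : ∀ j e a x, P.pen j e a x = 0) (e : ℕ) :
    ∀ (j : ℕ), e ≤ j → ∀ (s a x : ℕ) (b : ℤ), x ∈ P.desc j e a →
      rd P mc ω vis hid (j - e) s x (b - shift P.M (jit P.M ω) (j - e) e s) ⊆
        rd P mc ω vis hid j (s / P.M ^ e) a b := by
  induction e with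
  | zero =>
    intro j _ s a x b hx
    have hx' : x = a := by simpa [Par.desc] using hx
    subst hx'
    simp [shift]
  | succ e ih =>
    intro j hj s a x b hx
    obtain ⟨j, rfl⟩ : ∃ k, j = k + 1 := ⟨j - 1, by omega⟩
    rw [Par.desc, Finset.mem_biUnion] at hx
    obtain ⟨a', ha', hx⟩ := hx
    rw [Nat.add_sub_cancel] at hx
    have h1 := ih j (by omega) s a' x (b - jit P.M ω j (s / P.M ^ e)) hx
    have e1 : j + 1 - (e + 1) = j - e := by omega
    have e2 : shift P.M (jit P.M ω) (j - e) (e + 1) s =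
        shift P.M (jit P.M ω) (j - e) e s + jit P.M ω j (s / P.M ^ e) := by
      unfold shift
      rw [Finset.sum_range_succ]
      congr 2
      omega
    rw [e1, e2]
    have e3 : b - ((shift P.M (jit P.M ω) (j - e) e s + jit P.M ω j (s / P.M ^ e) : ℕ) : ℤ) =
        b - jit P.M ω j (s / P.M ^ e) - shift P.M (jit P.M ω) (j - e) e s := by
      push_cast; ring
    rw [e3]
    refine h1.trans ?_
    have e4 : s / P.M ^ e = s / P.M ^ (e + 1) * P.M + s / P.M ^ e % P.M := by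
      rw [pow_succ, ← Nat.div_div_eq_div_mul]
      exact (Nat.div_add_mod' _ _).symm
    have h2 := rd_child (P := P) (mc := mc) (ω := ω) (vis := vis) (hid := hid) (j := j)
      (i := s / P.M ^ (e + 1)) (a := a) (b := b) (m := s / P.M ^ e % P.M)
      (Nat.mod_lt _ hM) ha' hpen
    rw [← e4] at h2
    exact h2

/-- The chain lemma, one step short: the sets are inside the baseline. -/
theorem rd_chain_base (hM : 0 < P.M) (hpen : ∀ j e a x, P.pen j e a x = 0) {e : ℕ} (he : 1 ≤ e)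
    {j : ℕ} (hj : e ≤ j + 1) {i m a x : ℕ} {b : ℤ} (hm : m < P.M ^ e)
    (hx : x ∈ P.desc (j + 1) e a) :
    rd P mc ω vis hid (j + 1 - e) (i * P.M ^ e + m) x (b - Xi P ω (j + 1) e m) ⊆
      (range P.M).biUnion fun m => (P.kids (j + 1) a).biUnion fun a' =>
        rd P mc ω vis hid j (i * P.M + m) a' (b - ω.xi (j + 1) m) := by
  obtain ⟨e, rfl⟩ : ∃ k, e = k + 1 := ⟨e - 1, by omega⟩
  rw [Par.desc, Finset.mem_biUnion] at hx
  obtain ⟨a', ha', hx⟩ := hx
  rw [Nat.add_sub_cancel] at hx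
  rw [Xi_eq_shift P ω hM hj i m]
  set s := i * P.M ^ (e + 1) + m with hs
  have h1 := rd_chain (P := P) (mc := mc) (ω := ω) (vis := vis) (hid := hid) hM hpen e j
    (by omega) s a' x (b - jit P.M ω j (s / P.M ^ e)) hx
  have e1 : j + 1 - (e + 1) = j - e := by omega
  have e2 : shift P.M (jit P.M ω) (j - e) (e + 1) s =
      shift P.M (jit P.M ω) (j - e) e s + jit P.M ω j (s / P.M ^ e) := by
    unfold shift
    rw [Finset.sum_range_succ]
    congr 2
    omega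
  rw [e1, e2]
  have e3 : b - ((shift P.M (jit P.M ω) (j - e) e s + jit P.M ω j (s / P.M ^ e) : ℕ) : ℤ) =
      b - jit P.M ω j (s / P.M ^ e) - shift P.M (jit P.M ω) (j - e) e s := by
    push_cast; ring
  rw [e3]
  refine h1.trans ?_
  intro c hc
  simp only [mem_biUnion, mem_range]
  have e5 : s / P.M ^ (e + 1) = i := by
    rw [hs, mul_comm, Nat.mul_add_div (pow_pos hM _), Nat.div_eq_of_lt hm, add_zero]
  have e4 : s / P.M ^ e = i * P.M + s / P.M ^ e % P.M := by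
    conv_rhs => rw [← e5, pow_succ, ← Nat.div_div_eq_div_mul]
    exact (Nat.div_add_mod' _ _).symm
  refine ⟨s / P.M ^ e % P.M, Nat.mod_lt _ hM, a', ha', ?_⟩
  have e6 : jit P.M ω j (s / P.M ^ e) = ω.xi (j + 1) (s / P.M ^ e % P.M) := rfl
  rw [e6] at hc
  rw [← e4]
  exact hc

/-- Heights of the lanes available at level `j`. -/
def heights (S j : ℕ) : Finset ℕ :=
  if j = 0 then ∅ else ((range S).filter fun s => 2 ^ s ∣ j).image (2 ^ ·)

theorem heights_spec (S j : ℕ) : ∀ h ∈ heights S j, 1 ≤ h ∧ h ≤ j := by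
  intro h hh
  unfold heights at hh
  split_ifs at hh with hj
  · exact absurd hh (Finset.notMem_empty _)
  · obtain ⟨s, hs, rfl⟩ := Finset.mem_image.1 hh
    exact ⟨Nat.one_le_two_pow, Nat.le_of_dvd (by omega) (Finset.mem_filter.1 hs).2⟩

theorem sum_heights_le (S j : ℕ) (f : ℕ → ℝ) (hf : ∀ h, 0 ≤ f h) :
    ∑ h ∈ heights S (j + 1), f h ≤ ∑ s ∈ range S, f (2 ^ s) := by
  unfold heights
  rw [if_neg (by omega)]
  rw [Finset.sum_image fun x _ y _ h => Nat.pow_right_injective le_rfl h]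
  exact Finset.sum_le_sum_of_subset_of_nonneg (Finset.filter_subset _ _) fun s _ _ => hf _

/-- The read sets with labels in `ℤ`. -/
noncomputable def rdZ (P : Par) (mc : Mach) (ω : Rnd) (vis hid : Leaf) (j t : ℕ) (a b : ℤ) :
    Finset (ℕ × ℕ) :=
  if a < 0 then ∅ else rd P mc ω vis hid j t a.toNat b

/-- The recursion for the read sets in the form of `H123/BoxArea.lean`. -/
theorem rdZ_step (hM : 0 < P.M) (hpen : ∀ j e a x, P.pen j e a x = 0)
    (hkids : ∀ j a, P.kids j a ⊆ Ico (a * P.M) ((a + 2) * P.M))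
    (hlab : ∀ j i a s q κ m, 2 ^ s ∣ j → 1 ≤ j → m < P.M ^ 2 ^ s → s < P.S → q < mc.cnt s →
      (laneOf P mc ω vis hid (rd P mc ω vis hid) j i a s q κ m).1 ∈ P.desc j (2 ^ s) a)
    (j t : ℕ) (a b : ℤ) : ∃ lane : ℕ → ℕ → ℕ → ℤ, rdZ P mc ω vis hid (j + 1) t a b ⊆
      (range P.M).biUnion (fun i => (Ico (a * P.M - (0 : ℕ)) (a * P.M + (2 * P.M : ℕ) : ℤ)).biUnion
        fun a' => rdZ P mc ω vis hid j (P.M * t + i) a' (b - jit P.M ω j (P.M * t + i))) ∪
      (heights P.S (j + 1)).biUnion fun h =>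
        (range (mc.cnt (Nat.log 2 h) * h)).biUnion fun l =>
          (range (P.M ^ h)).biUnion fun u => rdZ P mc ω vis hid (j + 1 - h) (P.M ^ h * t + u)
            (lane h l u) (b - H123.Xi P.M (jit P.M ω) h (j + 1 - h) (P.M ^ h * t + u) + h) := by
  refine ⟨fun h l u => ((laneOf P mc ω vis hid (rd P mc ω vis hid) (j + 1) t a.toNat
    (Nat.log 2 h) (l / h) ((b + P.H).toNat - l % h) u).1 : ℤ), ?_⟩
  unfold rdZ
  rcases lt_or_ge a 0 with ha | ha
  · rw [if_pos ha]; exact Finset.empty_subset _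
  rw [if_neg (by omega), rd_succ]
  obtain ⟨k, rfl⟩ := Int.eq_ofNat_of_zero_le ha
  -- the baseline
  have hbase : ((range P.M).biUnion fun m => (P.kids (j + 1) k).biUnion fun a' =>
      rd P mc ω vis hid j (t * P.M + m) a' (b - ω.xi (j + 1) m)) ⊆
      (range P.M).biUnion (fun i => (Ico ((k : ℤ) * P.M - (0 : ℕ))
        ((k : ℤ) * P.M + (2 * P.M : ℕ) : ℤ)).biUnion fun a' =>
        if a' < 0 then ∅ else
        rd P mc ω vis hid j (P.M * t + i) a'.toNat (b - jit P.M ω j (P.M * t + i))) := by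
    intro c hc
    simp only [mem_biUnion, mem_range] at hc ⊢
    obtain ⟨m, hm, a', ha', hc⟩ := hc
    have h1 := Finset.mem_Ico.1 (hkids _ _ ha')
    refine ⟨m, hm, (a' : ℤ), ?_, ?_⟩
    · rw [Finset.mem_Ico]
      have h2 : ((k * P.M : ℕ) : ℤ) ≤ a' := by exact_mod_cast h1.1
      have h3 : (a' : ℤ) < (((k + 2) * P.M : ℕ) : ℤ) := by exact_mod_cast h1.2
      push_cast at h2 h3 ⊢
      constructor
      · linarith
      · linarith
    · rw [if_neg (by omega)]
      have e1 : jit P.M ω j (P.M * t + m) = ω.xi (j + 1) m := by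
        unfold jit
        rw [Nat.mul_add_mod, Nat.mod_eq_of_lt hm]
      rw [e1, Int.toNat_natCast, mul_comm P.M t]
      exact hc
  unfold stepRead
  intro c hc
  rcases Finset.mem_union.1 hc with hc | hc
  · refine Finset.mem_union_left _ (hbase ?_)
    simp only [mem_biUnion, mem_range, Int.toNat_natCast, Nat.add_sub_cancel, hpen] at hc ⊢
    obtain ⟨m, hm, a', ha', hc⟩ := hc
    exact ⟨m, hm, a', ha', by simpa using hc⟩
  · simp only [mem_biUnion, mem_range, Int.toNat_natCast, mem_filter] at hc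
    obtain ⟨s, ⟨hs, hdvd⟩, q, hq, κ, hκ, m, hm, hc⟩ := hc
    have hle : 2 ^ s ≤ j + 1 := Nat.le_of_dvd (by omega) hdvd
    have hlab' := hlab (j + 1) t k s q κ m hdvd (by omega) hm hs hq
    set x := (laneOf P mc ω vis hid (rd P mc ω vis hid) (j + 1) t k s q κ m).1 with hx
    have hidx : uidx P ω (j + 1) k s κ m x + 2 ^ s =
        ((κ : ℤ) - P.H + 2 ^ s) - Xi P ω (j + 1) (2 ^ s) m := by
      unfold uidx
      rw [hpen]
      push_cast
      ring
    rw [hidx] at hc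
    rcases le_or_gt ((κ : ℤ) - P.H + 2 ^ s) b with hold | hnew
    · -- old rounds are inside the baseline
      refine Finset.mem_union_left _ (hbase ?_)
      refine rd_chain_base hM hpen (Nat.one_le_two_pow) hle hm hlab' ?_
      exact rd_mono _ _ _ (by omega) hc
    · -- recent rounds
      refine Finset.mem_union_right _ ?_
      have h2s : 0 < 2 ^ s := Nat.two_pow_pos s
      have hr : (b + P.H).toNat - κ < 2 ^ s := by
        have h3 : ((2 ^ s : ℕ) : ℤ) = (2 : ℤ) ^ s := by push_cast; rfl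
        omega
      have hκ2 : κ ≤ (b + P.H).toNat := by omega
      simp only [mem_biUnion, mem_range]
      refine ⟨2 ^ s, ?_, q * 2 ^ s + ((b + P.H).toNat - κ), ?_, m, hm, ?_⟩
      · unfold heights
        rw [if_neg (by omega)]
        exact Finset.mem_image.2 ⟨s, Finset.mem_filter.2 ⟨Finset.mem_range.2 hs, hdvd⟩, rfl⟩
      · rw [Nat.log_pow (by norm_num)]
        calc q * 2 ^ s + ((b + P.H).toNat - κ) < q * 2 ^ s + 2 ^ s := by omega
          _ = (q + 1) * 2 ^ s := by ring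
          _ ≤ mc.cnt s * 2 ^ s := Nat.mul_le_mul_right _ hq
      · have e1 : (q * 2 ^ s + ((b + P.H).toNat - κ)) / 2 ^ s = q := by
          rw [mul_comm, Nat.mul_add_div h2s, Nat.div_eq_of_lt hr, add_zero]
        have e2 : (q * 2 ^ s + ((b + P.H).toNat - κ)) % 2 ^ s = (b + P.H).toNat - κ := by
          rw [mul_comm, Nat.mul_add_mod, Nat.mod_eq_of_lt hr]
        have e3 : (b + P.H).toNat - ((b + P.H).toNat - κ) = κ := by omega
        simp only [Nat.log_pow (show 1 < 2 by norm_num), e1, e2, e3, Int.toNat_natCast]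
        rw [if_neg (by omega), ← hx, mul_comm (P.M ^ 2 ^ s) t]
        refine rd_mono _ _ _ ?_ hc
        have e4 : H123.Xi P.M (jit P.M ω) (2 ^ s) (j + 1 - 2 ^ s) (t * P.M ^ 2 ^ s + m) =
            Xi P ω (j + 1) (2 ^ s) m := by
          rw [Xi_eq_shift P ω hM hle t m]
          rfl
        rw [e4]
        push_cast
        omega

theorem rdZ_zero (t : ℕ) (a b : ℤ) : (rdZ P mc ω vis hid 0 t a b).card ≤ 1 := by
  unfold rdZ
  split_ifs
  · simp
  · rw [rd_zero]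
    split_ifs <;> simp

theorem rdZ_neg (t : ℕ) (a b : ℤ) (hb : b < 0) : rdZ P mc ω vis hid 0 t a b = ∅ := by
  unfold rdZ
  split_ifs
  · rfl
  · rw [rd_zero, if_pos hb]

/-- **Mean number of reads of the algorithm of `C/Alg.lean`**, additive geometry. The machines and
the coins are arbitrary (they may depend on the jitters). -/
theorem mean_card_rd {J n : ℕ} (hn : 0 < n) (hM : 2 ≤ P.M)
    (hpen : ∀ j e a x, P.pen j e a x = 0)
    (hkids : ∀ j a, P.kids j a ⊆ Ico (a * P.M) ((a + 2) * P.M))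
    (mk : (JI n P.M → Fin (J + 1)) → Rnd) (hmk : ∀ w, (mk w).xi = xiOf n P.M J w)
    (hlab : ∀ w j i a s q κ m, 2 ^ s ∣ j → 1 ≤ j → m < P.M ^ 2 ^ s → s < P.S → q < mc.cnt s →
      (laneOf P mc (mk w) vis hid (rd P mc (mk w) vis hid) j i a s q κ m).1 ∈ P.desc j (2 ^ s) a)
    {lam C : ℝ} (hlam : 0 ≤ lam) (hC : 1 + ∑ s ∈ range P.S, 3 * ((mc.cnt s * 2 ^ s : ℕ) : ℝ) *
      Real.exp (lam * 2 ^ s) / (P.M : ℝ) ^ 2 ^ s ≤ C) (a0 : ℕ) (b : ℤ) :
    ∑ w : JI n P.M → Fin (J + 1), ((rd P mc (mk w) vis hid n 0 a0 b).card : ℝ) ≤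
      (Fintype.card (JI n P.M → Fin (J + 1)) : ℝ) * (3 * ((P.M : ℝ) ^ n * (P.M : ℝ) ^ n) * C ^ n *
        Real.exp (lam * b + n * (- lam * J / 2 + lam ^ 2 * J ^ 2 / 8))) := by
  have hM0 : 0 < P.M := by omega
  have hMr : (0 : ℝ) < P.M := by exact_mod_cast hM0
  have hsum0 : 0 ≤ ∑ s ∈ range P.S, 3 * ((mc.cnt s * 2 ^ s : ℕ) : ℝ) *
      Real.exp (lam * 2 ^ s) / (P.M : ℝ) ^ 2 ^ s :=
    Finset.sum_nonneg fun s _ => by positivity
  have h := H123.mean_areaZ (γ := ℕ × ℕ) (M := P.M) hM0 hlam (C := C) (by linarith) (J := J)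
    (ξ := fun w => jit P.M (mk w)) (S := fun w => rdZ P mc (mk w) vis hid) (P := 0) (Q := 2 * P.M)
    (c := 2) (by omega) (sc := heights P.S) (heights_spec P.S)
    (Lam := fun h => mc.cnt (Nat.log 2 h) * h)
    (fun w => rdZ_zero) (fun w => rdZ_neg)
    (fun w j t a b => rdZ_step hM0 hpen hkids (hlab w) j t a b)
    (fun j => by
      have h1 := sum_heights_le P.S j (fun h => (((2 : ℕ) : ℝ) + 1) *
        ((mc.cnt (Nat.log 2 h) * h : ℕ) : ℝ) * Real.exp (lam * h) / (P.M : ℝ) ^ h)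
        (fun h => by positivity)
      have h2 : ∑ s ∈ range P.S, (((2 : ℕ) : ℝ) + 1) *
          ((mc.cnt (Nat.log 2 (2 ^ s)) * 2 ^ s : ℕ) : ℝ) * Real.exp (lam * ((2 ^ s : ℕ) : ℝ)) /
            (P.M : ℝ) ^ 2 ^ s = ∑ s ∈ range P.S, 3 * ((mc.cnt s * 2 ^ s : ℕ) : ℝ) *
          Real.exp (lam * 2 ^ s) / (P.M : ℝ) ^ 2 ^ s := by
        refine Finset.sum_congr rfl fun s _ => ?_
        rw [Nat.log_pow (by norm_num)]
        push_cast
        ring
      linarith)
    n 0 1 (a0 : ℤ) b (fun r k => jidx n P.M hn hM0 k (r / P.M ^ k))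
    (fun w r _ k hk => by
      simp only [mul_zero, zero_add]
      unfold jit
      rw [hmk]
      exact xiOf_succ hn hM0 w hk _)
    (fun r _ => by
      have := jidx_inj n P.M hn hM0 r
      exact this)
  have hcard : (0 : ℝ) < (Fintype.card (JI n P.M → Fin (J + 1)) : ℝ) := by
    exact_mod_cast Fintype.card_pos
  rw [div_le_iff₀ hcard] at h
  have h3 : ∀ w : JI n P.M → Fin (J + 1),
      (((Ico (a0 : ℤ) ((a0 : ℤ) + (1 : ℕ))).biUnion fun a' =>
        rdZ P mc (mk w) vis hid n 0 a' b).card : ℝ) =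
      ((rd P mc (mk w) vis hid n 0 a0 b).card : ℝ) := by
    intro w
    have e1 : Ico (a0 : ℤ) ((a0 : ℤ) + (1 : ℕ)) = {(a0 : ℤ)} := by
      ext y
      simp only [mem_Ico, mem_singleton]
      push_cast
      omega
    rw [e1, Finset.singleton_biUnion]
    unfold rdZ
    rw [if_neg (by omega), Int.toNat_natCast]
  rw [Finset.sum_congr rfl fun w _ => h3 w] at h
  refine h.trans (le_of_eq ?_)
  push_cast
  ring

/-- **Mean number of reads, final form.** -/
theorem mean_card_rd_final {J n : ℕ} (hn : 0 < n) (hM : 2 ≤ P.M) (hJ : 0 < J)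
    (hpen : ∀ j e a x, P.pen j e a x = 0)
    (hkids : ∀ j a, P.kids j a ⊆ Ico (a * P.M) ((a + 2) * P.M))
    (mk : (JI n P.M → Fin (J + 1)) → Rnd) (hmk : ∀ w, (mk w).xi = xiOf n P.M J w)
    (hlab : ∀ w j i a s q κ m, 2 ^ s ∣ j → 1 ≤ j → m < P.M ^ 2 ^ s → s < P.S → q < mc.cnt s →
      (laneOf P mc (mk w) vis hid (rd P mc (mk w) vis hid) j i a s q κ m).1 ∈ P.desc j (2 ^ s) a)
    {c : ℝ} (hc : 0 ≤ c) (hC : ∑ s ∈ range P.S, 3 * ((mc.cnt s * 2 ^ s : ℕ) : ℝ) *
      Real.exp (4 * c / J ^ 2 * 2 ^ s) / (P.M : ℝ) ^ 2 ^ s ≤ c ^ 2 / J ^ 2) (a0 : ℕ) (b : ℤ)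
    (hb : (b : ℝ) ≤ (J / 2 - c) * n) :
    ∑ w : JI n P.M → Fin (J + 1), ((rd P mc (mk w) vis hid n 0 a0 b).card : ℝ) ≤
      (Fintype.card (JI n P.M → Fin (J + 1)) : ℝ) * (3 * ((P.M : ℝ) ^ n * (P.M : ℝ) ^ n) *
        Real.exp (- (c ^ 2 / J ^ 2) * n)) := by
  have hJ0 : (0 : ℝ) < J := by exact_mod_cast hJ
  have hlam : (0 : ℝ) ≤ 4 * c / J ^ 2 := by positivity
  refine (mean_card_rd hn hM hpen hkids mk hmk hlab hlam (add_le_add le_rfl hC) a0 b).trans ?_
  have h0 : (1 + c ^ 2 / (J : ℝ) ^ 2) ^ n ≤ Real.exp (n * (c ^ 2 / J ^ 2)) := by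
    rw [mul_comm, Real.exp_mul, Real.rpow_natCast]
    have : 1 + c ^ 2 / (J : ℝ) ^ 2 ≤ Real.exp (c ^ 2 / J ^ 2) := by
      linarith [Real.add_one_le_exp (c ^ 2 / (J : ℝ) ^ 2)]
    exact pow_le_pow_left₀ (by positivity) this n
  have h2 : n * (c ^ 2 / (J : ℝ) ^ 2) + (4 * c / (J : ℝ) ^ 2 * b + n * (- (4 * c / J ^ 2) * J / 2 +
      (4 * c / J ^ 2) ^ 2 * J ^ 2 / 8)) ≤ - (c ^ 2 / J ^ 2) * n := by
    have h1 : 4 * c / (J : ℝ) ^ 2 * b ≤ 4 * c / J ^ 2 * ((J / 2 - c) * n) :=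
      mul_le_mul_of_nonneg_left hb hlam
    have h3 : (4 * c / (J : ℝ) ^ 2) ^ 2 * J ^ 2 / 8 = 2 * (c ^ 2 / J ^ 2) := by
      field_simp; ring
    have h4 : 4 * c / (J : ℝ) ^ 2 * ((J / 2 - c) * n) =
        n * (4 * c / J ^ 2 * J / 2) - 4 * (c ^ 2 / J ^ 2) * n := by
      field_simp
    rw [h3]
    rw [h4] at h1
    nlinarith
  calc (Fintype.card (JI n P.M → Fin (J + 1)) : ℝ) * (3 * ((P.M : ℝ) ^ n * (P.M : ℝ) ^ n) *
        (1 + c ^ 2 / (J : ℝ) ^ 2) ^ n * Real.exp (4 * c / (J : ℝ) ^ 2 * b +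
          n * (- (4 * c / J ^ 2) * J / 2 + (4 * c / J ^ 2) ^ 2 * J ^ 2 / 8)))
      ≤ (Fintype.card (JI n P.M → Fin (J + 1)) : ℝ) * (3 * ((P.M : ℝ) ^ n * (P.M : ℝ) ^ n) *
        Real.exp (n * (c ^ 2 / J ^ 2)) * Real.exp (4 * c / (J : ℝ) ^ 2 * b +
          n * (- (4 * c / J ^ 2) * J / 2 + (4 * c / J ^ 2) ^ 2 * J ^ 2 / 8))) := by
        gcongr
    _ = (Fintype.card (JI n P.M → Fin (J + 1)) : ℝ) * (3 * ((P.M : ℝ) ^ n * (P.M : ℝ) ^ n) *
        Real.exp (n * (c ^ 2 / (J : ℝ) ^ 2) + (4 * c / (J : ℝ) ^ 2 * b +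
          n * (- (4 * c / J ^ 2) * J / 2 + (4 * c / J ^ 2) ^ 2 * J ^ 2 / 8)))) := by
        rw [Real.exp_add (n * (c ^ 2 / (J : ℝ) ^ 2))]; ring
    _ ≤ _ := by
        have := Real.exp_le_exp.2 h2
        gcongr

theorem boxPar_pen (M ℓ μ B J S H j e a x : ℕ) : (boxPar M ℓ μ B J S H).pen j e a x = 0 := rfl

theorem boxPar_kids (M ℓ μ B J S H j a : ℕ) : (boxPar M ℓ μ B J S H).kids j a ⊆
    Ico (a * (boxPar M ℓ μ B J S H).M) ((a + 2) * (boxPar M ℓ μ B J S H).M) := subset_rfl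

end Vale.Agent.P315.H927
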