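import Vale.Agent.P315.H927.ValAlong
import Vale.Agent.P315.H95.Var

/-! Milestone 2: the static shift of the leaves for the labels with classes. -/

set_option autoImplicit false

namespace Vale.Agent.P315.H927

open Finset Vale.Agent.P315.Q976 Vale.Agent.P315.C Vale.Agent.P315.H808 Vale.Agent.P315.Acc
  Vale.Agent.P315.H95

section

variable {m ℓ μ B w0 J S H Kc D1 : ℕ} {vis hid : Leaf} {n : ℕ}
  (K : Chain (clsPar m ℓ μ B w0 J S H Kc D1) vis hid n)

/-- The penalties on the lineage of a row add up to `D1` times the class variation of the leaf. -/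
theorem penSum_cls (hroot : ac (K.lab n 0) = 0) {x : ℕ} (hx : x < (2 ^ m) ^ n) :
    penSum K x = D1 * ac (K.lab 0 x) := by
  have hM : (clsPar m ℓ μ B w0 J S H Kc D1).M = 2 ^ m := rfl
  have hp : 0 < 2 ^ m := by positivity
  have hkid : ∀ l < n, K.lab l (x / (2 ^ m) ^ l) ∈ kids m Kc (K.lab (l + 1) (x / (2 ^ m) ^ (l + 1))) := by
    intro l hl
    have h1 : x / (2 ^ m) ^ (l + 1) < (2 ^ m) ^ (n - (l + 1)) := by
      rw [Nat.div_lt_iff_lt_mul (by positivity), ← pow_add]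
      have : n - (l + 1) + (l + 1) = n := by omega
      rwa [this]
    have h2 := K.kid l (x / (2 ^ m) ^ (l + 1)) (x / (2 ^ m) ^ l % 2 ^ m) hl h1
      (Nat.mod_lt _ hp)
    have h3 : x / (2 ^ m) ^ (l + 1) * 2 ^ m + x / (2 ^ m) ^ l % 2 ^ m = x / (2 ^ m) ^ l := by
      rw [pow_succ, ← Nat.div_div_eq_div_mul]
      exact Nat.div_add_mod' _ _
    rw [hM, h3] at h2
    exact h2
  have h := penSum_tele K D1 ac x (fun l hl => ac_le_of_kid (hkid l hl)) (fun l _ => rfl)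
  rw [hM, Nat.div_eq_of_lt hx, hroot, mul_zero, add_zero, pow_zero, Nat.div_one] at h
  exact h

/-- **VAL of milestone 2.** Mean over the seeds of the weighted mean over the leaves of the
overshoot of the static shift, for the labels of `H95/Boxes.lean` and weights proportional to the
masses `S0`. -/
theorem mean_val2 {Kc0 : ℕ} {κr : ℕ} {S0 pos : ℕ → ℕ}
    (h : PathOK m w0 Kc0 n κr S0 pos) (hlab : ∀ x, K.lab 0 x = lab m w0 S0 pos n κr 0 x)
    (hroot : ac (K.lab n 0) = 0) {c : ℝ} (hc : 0 < c) (hw : ∀ x, K.w x = c * S0 x)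
    (hn : 0 < n) [Nonempty (Fin ((2 ^ m) ^ n))]
    (mc : (JI n (2 ^ m) → Fin (J + 1)) → Mach) (mk : (JI n (2 ^ m) → Fin (J + 1)) → Rnd)
    (hmk : ∀ w, (mk w).xi = xiOf n (2 ^ m) J w)
    (h0 : ∃ p, μ ∣ p ∧ p ≤ B ∧ Nat.dist p p ≤ ℓ / 2)
    (hle : ∀ i p q, Nat.dist p q ≤ ℓ / 2 → hid i p q ≤ vis i p q) {lo : ℝ}
    (hlo : lo ≤ n * ((J : ℝ) / 2)) :
    ∑ w : JI n (2 ^ m) → Fin (J + 1),
        EE (fun x : Fin ((2 ^ m) ^ n) => K.w x)
          (fun x => max 0 (((K.along (mc w) (mk w) h0 hle).S 0 x : ℝ) - lo)) ≤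
      (Fintype.card (JI n (2 ^ m) → Fin (J + 1)) : ℝ) *
        ((n * ((J : ℝ) / 2) - lo) + J / 2 * Real.sqrt n +
          D1 * (2 / Real.log 2 * (Kc0 * Real.log 2 + 2 * √(2 * n * (Kc0 * Real.log 2))) +
            (κr + 2))) := by
  have hM : 0 < (clsPar m ℓ μ B w0 J S H Kc D1).M := by
    show 0 < 2 ^ m
    positivity
  have : Nonempty (Fin ((clsPar m ℓ μ B w0 J S H Kc D1).M ^ n)) :=
    (inferInstance : Nonempty (Fin ((2 ^ m) ^ n)))
  have hwpos : ∀ x : Fin ((2 ^ m) ^ n), 0 < K.w x := fun x => K.w_pos x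
  have key := mean_EE_S (J := J) K hn hM mc mk hmk h0 hle hlo
    (fun x : Fin ((2 ^ m) ^ n) => K.w x) hwpos
  refine key.trans (mul_le_mul_of_nonneg_left (add_le_add le_rfl ?_) (Nat.cast_nonneg _))
  have hv := h.var_le
  have hS : (0 : ℝ) < ∑ x ∈ range ((2 ^ m) ^ n), (S0 x : ℝ) := by
    refine sum_pos (fun x _ => ?_) ⟨0, mem_range.2 (by positivity)⟩
    have h1 := K.w_pos x
    rw [hw x] at h1
    exact (pos_iff_pos_of_mul_pos h1).1 hc
  show (∑ x : Fin ((2 ^ m) ^ n), K.w x * (penSum K x : ℝ)) / (∑ x : Fin ((2 ^ m) ^ n), K.w x) ≤ _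
  have e1 : ∑ x : Fin ((2 ^ m) ^ n), K.w x * (penSum K x : ℝ) =
      c * D1 * ∑ x ∈ range ((2 ^ m) ^ n), (S0 x : ℝ) * ac (lab m w0 S0 pos n κr 0 x) := by
    rw [← Fin.sum_univ_eq_sum_range (fun x => (S0 x : ℝ) * ac (lab m w0 S0 pos n κr 0 x)),
      mul_sum]
    refine sum_congr rfl fun x _ => ?_
    rw [penSum_cls K hroot x.isLt, hlab, hw]
    push_cast
    ring
  have e2 : ∑ x : Fin ((2 ^ m) ^ n), K.w x = c * ∑ x ∈ range ((2 ^ m) ^ n), (S0 x : ℝ) := by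
    rw [← Fin.sum_univ_eq_sum_range (fun x => (S0 x : ℝ)), mul_sum]
    exact sum_congr rfl fun x _ => hw x
  rw [e1, e2, div_le_iff₀ (mul_pos hc hS)]
  have h2 := mul_le_mul_of_nonneg_left hv (mul_nonneg hc.le (Nat.cast_nonneg (α := ℝ) D1))
  calc _ ≤ _ := h2
    _ = _ := by ring

end

end Vale.Agent.P315.H927
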