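import Vale.Agent.P315.Q976.Area

/-! Area bookkeeping, second half: from a pathwise recursion for the read areas (several scales)
to the expectation over the seeds and to the final number of reads. -/

set_option autoImplicit false

namespace Vale.Agent.P315.H927

open Finset Vale.Agent.P315.Q976

/-- Sum of the jitters between the slab `s` of level `l` and its ancestor of level `l + h`. -/
def shift (M : ℕ) (ξ : ℕ → ℕ → ℕ) (l h s : ℕ) : ℕ := ∑ k ∈ range h, ξ (l + k) (s / M ^ k)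

lemma shift_one (M : ℕ) (ξ : ℕ → ℕ → ℕ) (l s : ℕ) : shift M ξ l 1 s = ξ l s := by
  simp [shift]

lemma lineage_add (M : ℕ) (ξ : ℕ → ℕ → ℕ) (l h r : ℕ) :
    lineage M ξ (l + h) r = lineage M ξ l r + shift M ξ l h (r / M ^ l) := by
  unfold lineage shift
  rw [Finset.sum_range_add]
  congr 1
  refine Finset.sum_congr rfl fun k _ => ?_
  rw [pow_add, Nat.div_div_eq_div_mul]

/-- The leaf sum of a slab, split over the slabs `h` levels below. -/
lemma leafsum_split {M : ℕ} (hM : 0 < M) (ξ : ℕ → ℕ → ℕ) (lam : ℝ) (l h t : ℕ) :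
    ∑ r ∈ range (M ^ (l + h)), Real.exp (- lam * (lineage M ξ (l + h) (M ^ (l + h) * t + r) : ℝ)) =
      ∑ i ∈ range (M ^ h), Real.exp (- lam * (shift M ξ l h (M ^ h * t + i) : ℝ)) *
        ∑ r ∈ range (M ^ l), Real.exp (- lam * (lineage M ξ l (M ^ l * (M ^ h * t + i) + r) : ℝ)) := by
  rw [pow_add, sum_range_mul' (M ^ l) (M ^ h)]
  refine Finset.sum_congr rfl fun i _ => ?_
  rw [Finset.mul_sum]
  refine Finset.sum_congr rfl fun r hr => ?_
  have hr' := Finset.mem_range.1 hr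
  have e : M ^ l * M ^ h * t + (M ^ l * i + r) = M ^ l * (M ^ h * t + i) + r := by ring
  rw [e, lineage_add, Nat.mul_add_div (pow_pos hM l), Nat.div_eq_of_lt hr', add_zero,
    ← Real.exp_add]
  congr 1
  push_cast
  ring

/-- **Area recursion with several scales, pathwise.** At level `j+1` the term `s ∈ S j` reads the
slabs `h s` levels below at an index increased by `a s`. -/
theorem area_multi_le {σ : Type*} {M : ℕ} (hM : 0 < M) {lam ε : ℝ} {ξ : ℕ → ℕ → ℕ}
    {u : ℕ → ℕ → ℤ → ℝ} (S : ℕ → Finset σ) (h : σ → ℕ) (a : σ → ℤ) (ρ : σ → ℝ)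
    (hh : ∀ j, ∀ s ∈ S j, 1 ≤ h s ∧ h s ≤ j + 1) (hρ : ∀ j, ∀ s ∈ S j, 0 ≤ ρ s)
    (hε : ∀ j, ∑ s ∈ S j, ρ s * Real.exp (lam * a s) ≤ ε) (hε0 : 0 ≤ ε)
    (h0 : ∀ t b, u 0 t b ≤ Real.exp (lam * b))
    (hs : ∀ j t b, u (j + 1) t b ≤ (∑ i ∈ range M, u j (M * t + i) (b - ξ j (M * t + i))) +
      ∑ s ∈ S j, ρ s * ∑ i ∈ range (M ^ h s), u (j + 1 - h s) (M ^ h s * t + i)
        (b - shift M ξ (j + 1 - h s) (h s) (M ^ h s * t + i) + a s))
    (n t : ℕ) (b : ℤ) :
    u n t b ≤ Real.exp (lam * b) * (1 + ε) ^ n *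
      ∑ r ∈ range (M ^ n), Real.exp (- lam * (lineage M ξ n (M ^ n * t + r) : ℝ)) := by
  induction n using Nat.strong_induction_on generalizing t b with
  | _ n ih =>
    rcases n with _ | n
    · simpa [lineage] using h0 t b
    refine (hs n t b).trans ?_
    set W := ∑ r ∈ range (M ^ (n + 1)),
      Real.exp (- lam * (lineage M ξ (n + 1) (M ^ (n + 1) * t + r) : ℝ)) with hW
    have hW0 : 0 ≤ W := Finset.sum_nonneg fun _ _ => (Real.exp_pos _).le
    have hC1 : (1 : ℝ) ≤ 1 + ε := by linarith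
    -- general estimate for the slabs `m` levels below, with index increment `c`
    have key : ∀ (m : ℕ) (c : ℤ), 1 ≤ m → m ≤ n + 1 →
        ∑ i ∈ range (M ^ m), u (n + 1 - m) (M ^ m * t + i)
          (b - shift M ξ (n + 1 - m) m (M ^ m * t + i) + c) ≤
        Real.exp (lam * b) * Real.exp (lam * c) * (1 + ε) ^ n * W := by
      intro m c hm1 hm2
      have hsplit := leafsum_split hM ξ lam (n + 1 - m) m t
      rw [Nat.sub_add_cancel hm2, ← hW] at hsplit
      rw [hsplit, Finset.mul_sum]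
      refine Finset.sum_le_sum fun i _ => ?_
      have e1 := ih (n + 1 - m) (by omega) (M ^ m * t + i)
        (b - shift M ξ (n + 1 - m) m (M ^ m * t + i) + c)
      refine e1.trans ?_
      set V := ∑ r ∈ range (M ^ (n + 1 - m)),
        Real.exp (- lam * (lineage M ξ (n + 1 - m) (M ^ (n + 1 - m) * (M ^ m * t + i) + r) : ℝ))
      have hV0 : 0 ≤ V := Finset.sum_nonneg fun _ _ => (Real.exp_pos _).le
      have hE : Real.exp (lam * ((b - shift M ξ (n + 1 - m) m (M ^ m * t + i) + c : ℤ) : ℝ)) =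
          Real.exp (lam * b) * Real.exp (lam * c) *
            Real.exp (- lam * (shift M ξ (n + 1 - m) m (M ^ m * t + i) : ℝ)) := by
        rw [← Real.exp_add, ← Real.exp_add]; congr 1; push_cast; ring
      rw [hE]
      have hpow : (1 + ε) ^ (n + 1 - m) ≤ (1 + ε) ^ n :=
        pow_le_pow_right₀ hC1 (by omega)
      calc Real.exp (lam * b) * Real.exp (lam * c) *
            Real.exp (- lam * (shift M ξ (n + 1 - m) m (M ^ m * t + i) : ℝ)) *
              (1 + ε) ^ (n + 1 - m) * V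
          ≤ Real.exp (lam * b) * Real.exp (lam * c) *
            Real.exp (- lam * (shift M ξ (n + 1 - m) m (M ^ m * t + i) : ℝ)) *
              (1 + ε) ^ n * V := by gcongr
        _ = _ := by ring
    have k1 := key 1 0 le_rfl (by omega)
    simp only [pow_one, shift_one, add_zero, Int.cast_zero, mul_zero, Real.exp_zero, mul_one,
      Nat.add_sub_cancel] at k1
    have k2 : ∑ s ∈ S n, ρ s * ∑ i ∈ range (M ^ h s), u (n + 1 - h s) (M ^ h s * t + i)
        (b - shift M ξ (n + 1 - h s) (h s) (M ^ h s * t + i) + a s) ≤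
        Real.exp (lam * b) * (1 + ε) ^ n * W * ε := by
      calc _ ≤ ∑ s ∈ S n, ρ s * (Real.exp (lam * b) * Real.exp (lam * a s) * (1 + ε) ^ n * W) :=
            Finset.sum_le_sum fun s hs' =>
              mul_le_mul_of_nonneg_left (key (h s) (a s) (hh n s hs').1 (hh n s hs').2) (hρ n s hs')
        _ = Real.exp (lam * b) * (1 + ε) ^ n * W * ∑ s ∈ S n, ρ s * Real.exp (lam * a s) := by
            rw [Finset.mul_sum]; exact Finset.sum_congr rfl fun s _ => by ring
        _ ≤ _ := by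
            apply mul_le_mul_of_nonneg_left (hε n)
            positivity
    calc _ ≤ Real.exp (lam * b) * (1 + ε) ^ n * W + Real.exp (lam * b) * (1 + ε) ^ n * W * ε :=
          add_le_add k1 k2
      _ = _ := by rw [pow_succ]; ring

/-- Mean over the seeds of the leaf sum. The indices of the seeds on one lineage are distinct. -/
theorem sum_leafsum {ι : Type*} [Fintype ι] [DecidableEq ι] (M J n t : ℕ) (lam : ℝ)
    (idx : ℕ → ℕ → ι)
    (hidx : ∀ r < M ^ n, Set.InjOn (fun j => idx j ((M ^ n * t + r) / M ^ j)) (range n : Set ℕ)) :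
    ∑ ω : ι → Fin (J + 1), ∑ r ∈ range (M ^ n),
        Real.exp (- lam * (lineage M (fun j s => (ω (idx j s) : ℕ)) n (M ^ n * t + r) : ℝ)) =
      (Fintype.card (ι → Fin (J + 1)) : ℝ) * ((M : ℝ) ^ n *
        ((∑ x : Fin (J + 1), Real.exp (- lam * (x : ℕ))) / (J + 1)) ^ n) := by
  rw [Finset.sum_comm]
  have hJ : (0 : ℝ) < (J : ℝ) + 1 := by positivity
  have key : ∀ r ∈ range (M ^ n), ∑ ω : ι → Fin (J + 1),
      Real.exp (- lam * (lineage M (fun j s => (ω (idx j s) : ℕ)) n (M ^ n * t + r) : ℝ)) =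
      (Fintype.card (ι → Fin (J + 1)) : ℝ) *
        ((∑ x : Fin (J + 1), Real.exp (- lam * (x : ℕ))) / (J + 1)) ^ n := by
    intro r hr
    have hinj := hidx r (Finset.mem_range.1 hr)
    set T := (range n).image (fun j => idx j ((M ^ n * t + r) / M ^ j)) with hT
    have hcard : T.card = n := by
      rw [hT, Finset.card_image_of_injOn hinj, card_range]
    have hle : n ≤ Fintype.card ι := hcard ▸ Finset.card_le_univ T
    have h1 : ∀ ω : ι → Fin (J + 1),
        Real.exp (- lam * (lineage M (fun j s => (ω (idx j s) : ℕ)) n (M ^ n * t + r) : ℝ)) =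
        ∏ s ∈ T, Real.exp (- lam * (ω s : ℕ)) := by
      intro ω
      rw [hT, Finset.prod_image hinj, ← Real.exp_sum]
      congr 1
      rw [← Finset.mul_sum]
      congr 1
      unfold lineage
      push_cast
      rfl
    rw [Finset.sum_congr rfl fun ω _ => h1 ω,
      sum_prod_coord T (fun _ x => Real.exp (- lam * ((x : Fin (J + 1)) : ℕ))), Finset.prod_const,
      hcard, Fintype.card_fun, Fintype.card_fin, div_pow]
    push_cast
    have : ((J : ℝ) + 1) ^ Fintype.card ι = ((J : ℝ) + 1) ^ (Fintype.card ι - n) * (J + 1) ^ n := by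
      rw [← pow_add, Nat.sub_add_cancel hle]
    rw [this]
    field_simp
  rw [Finset.sum_congr rfl key, Finset.sum_const, card_range, nsmul_eq_mul]
  push_cast
  ring

/-- **Expected area.** -/
theorem area_mean {ι : Type*} [Fintype ι] [DecidableEq ι] {σ : Type*} {M J : ℕ} (hM : 0 < M)
    {lam ε : ℝ} (idx : ℕ → ℕ → ι) (n t : ℕ)
    (hidx : ∀ r < M ^ n, Set.InjOn (fun j => idx j ((M ^ n * t + r) / M ^ j)) (range n : Set ℕ))
    (u : (ι → Fin (J + 1)) → ℕ → ℕ → ℤ → ℝ)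
    (S : ℕ → Finset σ) (h : σ → ℕ) (a : σ → ℤ) (ρ : σ → ℝ)
    (hh : ∀ j, ∀ s ∈ S j, 1 ≤ h s ∧ h s ≤ j + 1) (hρ : ∀ j, ∀ s ∈ S j, 0 ≤ ρ s)
    (hε : ∀ j, ∑ s ∈ S j, ρ s * Real.exp (lam * a s) ≤ ε) (hε0 : 0 ≤ ε)
    (h0 : ∀ ω t b, u ω 0 t b ≤ Real.exp (lam * b))
    (hs : ∀ ω j t b, u ω (j + 1) t b ≤
      (∑ i ∈ range M, u ω j (M * t + i) (b - (ω (idx j (M * t + i)) : ℕ))) +
      ∑ s ∈ S j, ρ s * ∑ i ∈ range (M ^ h s), u ω (j + 1 - h s) (M ^ h s * t + i)
        (b - shift M (fun j s => (ω (idx j s) : ℕ)) (j + 1 - h s) (h s) (M ^ h s * t + i) + a s))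
    (b : ℤ) :
    ∑ ω, u ω n t b ≤ (Fintype.card (ι → Fin (J + 1)) : ℝ) * ((M : ℝ) ^ n *
      Real.exp (lam * b + n * (ε + (- lam * J / 2 + lam ^ 2 * J ^ 2 / 8)))) := by
  have h1 : ∀ ω : ι → Fin (J + 1), u ω n t b ≤ Real.exp (lam * b) * (1 + ε) ^ n *
      ∑ r ∈ range (M ^ n),
        Real.exp (- lam * (lineage M (fun j s => (ω (idx j s) : ℕ)) n (M ^ n * t + r) : ℝ)) :=
    fun ω => area_multi_le hM S h a ρ hh hρ hε hε0 (h0 ω) (hs ω) n t b
  refine (Finset.sum_le_sum fun ω _ => h1 ω).trans ?_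
  rw [← Finset.mul_sum, sum_leafsum M J n t lam idx hidx]
  have hq := exp_moment J lam
  set q := (∑ x : Fin (J + 1), Real.exp (- lam * (x : ℕ))) / ((J : ℝ) + 1) with hqdef
  have hq0 : 0 ≤ q := by rw [hqdef]; positivity
  have hC : (1 + ε) ^ n ≤ Real.exp (n * ε) := by
    rw [mul_comm, Real.exp_mul]
    have : 1 + ε ≤ Real.exp ε := by linarith [Real.add_one_le_exp ε]
    rw [Real.rpow_natCast]
    exact pow_le_pow_left₀ (by linarith) this n
  have hqn : q ^ n ≤ Real.exp (n * (- lam * J / 2 + lam ^ 2 * J ^ 2 / 8)) := by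
    rw [mul_comm, Real.exp_mul, Real.rpow_natCast]
    exact pow_le_pow_left₀ hq0 hq n
  have hE : Real.exp (lam * b + n * (ε + (- lam * J / 2 + lam ^ 2 * J ^ 2 / 8))) =
      Real.exp (lam * b) * Real.exp (n * ε) *
        Real.exp (n * (- lam * J / 2 + lam ^ 2 * J ^ 2 / 8)) := by
    rw [← Real.exp_add, ← Real.exp_add]; congr 1; ring
  rw [hE]
  calc Real.exp (lam * b) * (1 + ε) ^ n *
        ((Fintype.card (ι → Fin (J + 1)) : ℝ) * ((M : ℝ) ^ n * q ^ n))
      = (Fintype.card (ι → Fin (J + 1)) : ℝ) * ((M : ℝ) ^ n *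
        (Real.exp (lam * b) * (1 + ε) ^ n * q ^ n)) := by ring
    _ ≤ _ := by
        gcongr

/-- **Expected number of reads, final form**: at the index `b ≤ (J/2 - c) n` only a share
`exp (-c² n / J²)` is read. -/
theorem area_mean_final {ι : Type*} [Fintype ι] [DecidableEq ι] {σ : Type*} {M J : ℕ} (hM : 0 < M)
    (hJ : 0 < J) {ε c : ℝ} (hc : 0 ≤ c) (idx : ℕ → ℕ → ι) (n t : ℕ)
    (hidx : ∀ r < M ^ n, Set.InjOn (fun j => idx j ((M ^ n * t + r) / M ^ j)) (range n : Set ℕ))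
    (u : (ι → Fin (J + 1)) → ℕ → ℕ → ℤ → ℝ)
    (S : ℕ → Finset σ) (h : σ → ℕ) (a : σ → ℤ) (ρ : σ → ℝ)
    (hh : ∀ j, ∀ s ∈ S j, 1 ≤ h s ∧ h s ≤ j + 1) (hρ : ∀ j, ∀ s ∈ S j, 0 ≤ ρ s)
    (hε : ∀ j, ∑ s ∈ S j, ρ s * Real.exp (4 * c / J ^ 2 * a s) ≤ ε) (hε0 : 0 ≤ ε)
    (hε1 : ε ≤ c ^ 2 / J ^ 2)
    (h0 : ∀ ω t b, u ω 0 t b ≤ Real.exp (4 * c / J ^ 2 * b))
    (hs : ∀ ω j t b, u ω (j + 1) t b ≤
      (∑ i ∈ range M, u ω j (M * t + i) (b - (ω (idx j (M * t + i)) : ℕ))) +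
      ∑ s ∈ S j, ρ s * ∑ i ∈ range (M ^ h s), u ω (j + 1 - h s) (M ^ h s * t + i)
        (b - shift M (fun j s => (ω (idx j s) : ℕ)) (j + 1 - h s) (h s) (M ^ h s * t + i) + a s))
    (b : ℤ) (hb : (b : ℝ) ≤ (J / 2 - c) * n) :
    ∑ ω, u ω n t b ≤ (Fintype.card (ι → Fin (J + 1)) : ℝ) * ((M : ℝ) ^ n *
      Real.exp (- (c ^ 2 / J ^ 2) * n)) := by
  have hJ0 : (0 : ℝ) < J := by exact_mod_cast hJ
  refine (area_mean hM idx n t hidx u S h a ρ hh hρ hε hε0 h0 hs b).trans ?_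
  have hlam : (0 : ℝ) ≤ 4 * c / J ^ 2 := by positivity
  have h1 : 4 * c / (J : ℝ) ^ 2 * b ≤ 4 * c / J ^ 2 * ((J / 2 - c) * n) :=
    mul_le_mul_of_nonneg_left hb hlam
  have h2 : 4 * c / (J : ℝ) ^ 2 * b + n * (ε + (- (4 * c / J ^ 2) * J / 2 +
      (4 * c / J ^ 2) ^ 2 * J ^ 2 / 8)) ≤ - (c ^ 2 / J ^ 2) * n := by
    have h3 : (4 * c / (J : ℝ) ^ 2) ^ 2 * J ^ 2 / 8 = 2 * (c ^ 2 / J ^ 2) := by
      field_simp; ring
    have h4 : 4 * c / (J : ℝ) ^ 2 * ((J / 2 - c) * n) =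
        n * (4 * c / J ^ 2 * J / 2) - 4 * (c ^ 2 / J ^ 2) * n := by
      field_simp
    have h5 : (n : ℝ) * ε ≤ n * (c ^ 2 / J ^ 2) :=
      mul_le_mul_of_nonneg_left hε1 (Nat.cast_nonneg n)
    rw [h3]
    rw [h4] at h1
    nlinarith
  gcongr

/-- **One scale, natural indices** (the form of `H365/Alg.lean`: index `0` reads nothing). -/
theorem area_nat_mean {ι : Type*} [Fintype ι] [DecidableEq ι] {M J : ℕ} (hM : 0 < M)
    (hJ : 0 < J) {c A0 c0 : ℝ} (hc : 0 ≤ c) (hA0 : 0 ≤ A0) (hc0 : 0 ≤ c0)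
    (hε : c0 / M * Real.exp (4 * c / J ^ 2) ≤ c ^ 2 / J ^ 2) (idx : ℕ → ℕ → ι) (n t : ℕ)
    (hidx : ∀ r < M ^ n, Set.InjOn (fun j => idx j ((M ^ n * t + r) / M ^ j)) (range n : Set ℕ))
    (A : (ι → Fin (J + 1)) → ℕ → ℕ → ℕ → ℝ) (hA : ∀ ω j t b, 0 ≤ A ω j t b)
    (hz : ∀ ω j t, A ω j t 0 = 0) (h0 : ∀ ω t b, A ω 0 t b ≤ A0)
    (hs : ∀ ω j t b, 0 < b → A ω (j + 1) t b ≤
      ∑ i ∈ range M, (M * A ω j (M * t + i) (b - (ω (idx j (M * t + i)) : ℕ)) +
        c0 * A ω j (M * t + i) (b + 1 - (ω (idx j (M * t + i)) : ℕ))))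
    (b : ℕ) (hb : (b : ℝ) ≤ (J / 2 - c) * n) :
    ∑ ω, A ω n t b ≤ (Fintype.card (ι → Fin (J + 1)) : ℝ) * (A0 * ((M : ℝ) ^ n * (M : ℝ) ^ n) *
      Real.exp (- (c ^ 2 / J ^ 2) * n)) := by
  have hM0 : (0 : ℝ) < M := by exact_mod_cast hM
  rcases hA0.eq_or_lt with hA0' | hA0'
  · -- everything vanishes
    have hzero : ∀ ω j t b, A ω j t b = 0 := by
      intro ω j
      induction j with
      | zero => intro t b; exact le_antisymm (hA0' ▸ h0 ω t b) (hA ω 0 t b)
      | succ j ih =>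
        intro t b
        rcases Nat.eq_zero_or_pos b with rfl | hb
        · exact hz ω _ t
        · refine le_antisymm ((hs ω j t b hb).trans ?_) (hA ω _ t b)
          rw [Finset.sum_eq_zero]
          intro i _
          rw [ih, ih]; simp
    simp [hzero, ← hA0']
  let u : (ι → Fin (J + 1)) → ℕ → ℕ → ℤ → ℝ := fun ω j t b => A ω j t b.toNat / (A0 * (M : ℝ) ^ j)
  have hu0 : ∀ ω j t b, 0 ≤ u ω j t b := fun ω j t b => div_nonneg (hA _ _ _ _) (by positivity)
  have hlam : (0 : ℝ) ≤ 4 * c / J ^ 2 := by positivity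
  have hfin := area_mean_final (σ := Unit) hM hJ (ε := c0 / M * Real.exp (4 * c / J ^ 2)) hc idx n t
    hidx u (fun _ => Finset.univ) (fun _ => 1) (fun _ => 1) (fun _ => c0 / M)
    (fun j s _ => ⟨le_rfl, by omega⟩) (fun j s _ => by positivity) (fun j => by simp)
    (by positivity) hε
    (fun ω t b => by
      rcases le_or_gt b 0 with hb | hb
      · have hb0 : b.toNat = 0 := Int.toNat_of_nonpos hb
        simp only [u, hb0, hz, zero_div]
        exact (Real.exp_pos _).le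
      · have h1 : u ω 0 t b ≤ 1 := by
          simp only [u, pow_zero, mul_one]
          rw [div_le_one hA0']
          exact h0 ω t _
        refine h1.trans (Real.one_le_exp ?_)
        have : (0 : ℝ) < b := by exact_mod_cast hb
        positivity)
    (fun ω j t b => by
      rcases le_or_gt b 0 with hb | hb
      · have hb0 : b.toNat = 0 := Int.toNat_of_nonpos hb
        have : u ω (j + 1) t b = 0 := by simp only [u, hb0, hz, zero_div]
        rw [this]
        refine add_nonneg (Finset.sum_nonneg fun i _ => hu0 _ _ _ _)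
          (Finset.sum_nonneg fun s _ => mul_nonneg (by positivity)
            (Finset.sum_nonneg fun i _ => hu0 _ _ _ _))
      · have hb' : 0 < b.toNat := by omega
        have h1 := hs ω j t b.toNat hb'
        have h2 : u ω (j + 1) t b ≤ (∑ i ∈ range M,
            (M * A ω j (M * t + i) (b.toNat - (ω (idx j (M * t + i)) : ℕ)) +
              c0 * A ω j (M * t + i) (b.toNat + 1 - (ω (idx j (M * t + i)) : ℕ)))) /
                (A0 * (M : ℝ) ^ (j + 1)) := by
          simp only [u]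
          exact div_le_div_of_nonneg_right h1 (by positivity)
        refine h2.trans (le_of_eq ?_)
        rw [Finset.univ_unique, Finset.sum_singleton]
        simp only [pow_one, Nat.add_sub_cancel, shift_one, u]
        rw [Finset.sum_div, Finset.mul_sum, ← Finset.sum_add_distrib]
        refine Finset.sum_congr rfl fun i _ => ?_
        have e1 : (b - ((ω (idx j (M * t + i)) : ℕ) : ℤ)).toNat =
            b.toNat - (ω (idx j (M * t + i)) : ℕ) := by omega
        have e2 : (b - ((ω (idx j (M * t + i)) : ℕ) : ℤ) + 1).toNat =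
            b.toNat + 1 - (ω (idx j (M * t + i)) : ℕ) := by omega
        rw [e1, e2, pow_succ]
        field_simp)
    (b : ℤ) (by exact_mod_cast hb)
  have hpos : (0 : ℝ) < A0 * (M : ℝ) ^ n := by positivity
  have hrew : ∑ ω, u ω n t (b : ℤ) = (∑ ω, A ω n t b) / (A0 * (M : ℝ) ^ n) := by
    simp only [u, Int.toNat_natCast]
    rw [Finset.sum_div]
  rw [hrew, div_le_iff₀ hpos] at hfin
  refine hfin.trans (le_of_eq ?_)
  ring

/-- **Markov's inequality** for counting measures. -/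
theorem markov {Ω : Type*} [Fintype Ω] (f : Ω → ℝ) (hf : ∀ ω, 0 ≤ f ω) {m A : ℝ} (hm : 0 < m)
    (h : ∑ ω, f ω ≤ Fintype.card Ω * m) :
    A * ((univ.filter fun ω => A * m < f ω).card : ℝ) ≤ Fintype.card Ω := by
  have h1 : ((univ.filter fun ω => A * m < f ω).card : ℝ) * (A * m) ≤ ∑ ω, f ω := by
    calc ((univ.filter fun ω => A * m < f ω).card : ℝ) * (A * m)
        = ∑ ω ∈ univ.filter (fun ω => A * m < f ω), A * m := by
          rw [Finset.sum_const, nsmul_eq_mul]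
      _ ≤ ∑ ω ∈ univ.filter (fun ω => A * m < f ω), f ω :=
          Finset.sum_le_sum fun ω hω => (Finset.mem_filter.1 hω).2.le
      _ ≤ ∑ ω, f ω := Finset.sum_le_univ_sum_of_nonneg hf
  have h2 := h1.trans h
  have h3 : (A * ((univ.filter fun ω => A * m < f ω).card : ℝ)) * m ≤ Fintype.card Ω * m := by
    linarith
  exact le_of_mul_le_mul_right h3 hm

end Vale.Agent.P315.H927
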