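import Vale.Agent.P315.H927.AreaExp

/-! First and second moment of the sum of the jitters on one lineage. -/

set_option autoImplicit false

namespace Vale.Agent.P315.H927

open Finset Vale.Agent.P315.Q976

section moment
variable {ι : Type*} [Fintype ι] [DecidableEq ι] {J : ℕ}

/-- The centred jitter. -/
noncomputable def cen (J : ℕ) (x : Fin (J + 1)) : ℝ := ((x : ℕ) : ℝ) - J / 2

lemma sum_cen (J : ℕ) : ∑ x : Fin (J + 1), cen J x = 0 := by
  have hrev : ∑ x : Fin (J + 1), cen J x = ∑ x : Fin (J + 1), - cen J x := by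
    rw [← Equiv.sum_comp Fin.revPerm]
    refine Finset.sum_congr rfl fun x _ => ?_
    unfold cen
    have hx : (x : ℕ) ≤ J := by have := x.2; omega
    simp only [Fin.revPerm_apply, Fin.val_rev]
    rw [show J + 1 - ((x : ℕ) + 1) = J - x by omega, Nat.cast_sub hx]
    ring
  rw [Finset.sum_neg_distrib] at hrev
  linarith

lemma cen_sq_le (J : ℕ) (x : Fin (J + 1)) : cen J x ^ 2 ≤ (J : ℝ) ^ 2 / 4 := by
  have hx0 : (0 : ℝ) ≤ (x : ℕ) := Nat.cast_nonneg _
  have hxJ : ((x : ℕ) : ℝ) ≤ J := by exact_mod_cast (Nat.lt_succ_iff.1 x.2)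
  unfold cen
  nlinarith

/-- Second moment of a sum of distinct centred coordinates. -/
theorem sum_sq_cen (T : Finset ι) :
    ∑ ω : ι → Fin (J + 1), (∑ i ∈ T, cen J (ω i)) ^ 2 ≤
      (Fintype.card (ι → Fin (J + 1)) : ℝ) * (T.card * ((J : ℝ) ^ 2 / 4)) := by
  classical
  induction T using Finset.induction_on with
  | empty => simp
  | insert a T ha ih =>
    have hcross : ∑ ω : ι → Fin (J + 1), cen J (ω a) * ∑ i ∈ T, cen J (ω i) = 0 := by
      simp_rw [Finset.mul_sum]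
      rw [Finset.sum_comm]
      refine Finset.sum_eq_zero fun i hi => ?_
      have hne : a ≠ i := fun h => ha (h ▸ hi)
      have h1 := sum_prod_coord ({a, i} : Finset ι) (fun _ (x : Fin (J + 1)) => cen J x)
      simp only [Finset.prod_pair hne, sum_cen, mul_zero, zero_mul] at h1
      exact h1
    have hsq : ∀ ω : ι → Fin (J + 1), (∑ i ∈ insert a T, cen J (ω i)) ^ 2 =
        cen J (ω a) ^ 2 + 2 * (cen J (ω a) * ∑ i ∈ T, cen J (ω i)) +
          (∑ i ∈ T, cen J (ω i)) ^ 2 := by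
      intro ω
      rw [Finset.sum_insert ha]; ring
    rw [Finset.sum_congr rfl fun ω _ => hsq ω, Finset.sum_add_distrib, Finset.sum_add_distrib,
      ← Finset.mul_sum, hcross, mul_zero, add_zero, Finset.card_insert_of_notMem ha]
    have h1 : ∑ ω : ι → Fin (J + 1), cen J (ω a) ^ 2 ≤
        (Fintype.card (ι → Fin (J + 1)) : ℝ) * ((J : ℝ) ^ 2 / 4) := by
      calc ∑ ω : ι → Fin (J + 1), cen J (ω a) ^ 2
          ≤ ∑ _ω : ι → Fin (J + 1), (J : ℝ) ^ 2 / 4 :=
            Finset.sum_le_sum fun ω _ => cen_sq_le J (ω a)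
        _ = _ := by rw [Finset.sum_const, Finset.card_univ, nsmul_eq_mul]
    push_cast
    linarith

/-- Mean of the absolute value of the centred sum. -/
theorem sum_abs_cen (T : Finset ι) :
    ∑ ω : ι → Fin (J + 1), |∑ i ∈ T, cen J (ω i)| ≤
      (Fintype.card (ι → Fin (J + 1)) : ℝ) * (J / 2 * Real.sqrt T.card) := by
  have h1 := sum_sq_cen (J := J) T
  set N := (Fintype.card (ι → Fin (J + 1)) : ℝ) with hN
  have hN0 : 0 < N := by rw [hN]; exact_mod_cast Fintype.card_pos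
  have h2 : (∑ ω : ι → Fin (J + 1), |∑ i ∈ T, cen J (ω i)|) ^ 2 ≤
      N * ∑ ω : ι → Fin (J + 1), (∑ i ∈ T, cen J (ω i)) ^ 2 := by
    have := sq_sum_le_card_mul_sum_sq (s := (Finset.univ : Finset (ι → Fin (J + 1))))
      (f := fun ω => |∑ i ∈ T, cen J (ω i)|)
    simp only [sq_abs, Finset.card_univ] at this
    exact this
  have h3 : (∑ ω : ι → Fin (J + 1), |∑ i ∈ T, cen J (ω i)|) ^ 2 ≤
      (N * (J / 2 * Real.sqrt T.card)) ^ 2 := by
    have e : (N * (J / 2 * Real.sqrt T.card)) ^ 2 = N * (N * (T.card * ((J : ℝ) ^ 2 / 4))) := by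
      rw [mul_pow, mul_pow, Real.sq_sqrt (Nat.cast_nonneg _)]; ring
    rw [e]
    exact h2.trans (mul_le_mul_of_nonneg_left h1 hN0.le)
  exact abs_le_of_sq_le_sq' h3 (by positivity) |>.2

/-- **Mean overshoot.** The mean of `(sum of the jitters - b)⁺` for `b ≤ mean`. -/
theorem sum_pos_part (T : Finset ι) {b : ℝ} (hb : b ≤ T.card * ((J : ℝ) / 2)) :
    ∑ ω : ι → Fin (J + 1), max (((∑ i ∈ T, (ω i : ℕ) : ℕ) : ℝ) - b) 0 ≤
      (Fintype.card (ι → Fin (J + 1)) : ℝ) *
        ((T.card * ((J : ℝ) / 2) - b) + J / 2 * Real.sqrt T.card) := by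
  have h1 : ∀ ω : ι → Fin (J + 1), max (((∑ i ∈ T, (ω i : ℕ) : ℕ) : ℝ) - b) 0 ≤
      (T.card * ((J : ℝ) / 2) - b) + |∑ i ∈ T, cen J (ω i)| := by
    intro ω
    have e : ∑ i ∈ T, cen J (ω i) = ((∑ i ∈ T, (ω i : ℕ) : ℕ) : ℝ) - T.card * ((J : ℝ) / 2) := by
      unfold cen
      rw [Finset.sum_sub_distrib, Finset.sum_const, nsmul_eq_mul]
      push_cast
      ring
    rw [e]
    have h2 := le_abs_self (((∑ i ∈ T, (ω i : ℕ) : ℕ) : ℝ) - T.card * ((J : ℝ) / 2))
    have h3 := abs_nonneg (((∑ i ∈ T, (ω i : ℕ) : ℕ) : ℝ) - T.card * ((J : ℝ) / 2))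
    exact max_le (by linarith) (by linarith)
  refine (Finset.sum_le_sum fun ω _ => h1 ω).trans ?_
  rw [Finset.sum_add_distrib, Finset.sum_const, Finset.card_univ, nsmul_eq_mul, mul_add]
  exact add_le_add le_rfl (sum_abs_cen T)

end moment

/-- Mean overshoot of the lineage sum. -/
theorem lineage_pos_part {ι : Type*} [Fintype ι] [DecidableEq ι] {J : ℕ} (M n r : ℕ)
    (idx : ℕ → ℕ → ι) (hidx : Set.InjOn (fun j => idx j (r / M ^ j)) (range n : Set ℕ))
    {b : ℝ} (hb : b ≤ n * ((J : ℝ) / 2)) :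
    ∑ ω : ι → Fin (J + 1),
        max ((lineage M (fun j s => (ω (idx j s) : ℕ)) n r : ℝ) - b) 0 ≤
      (Fintype.card (ι → Fin (J + 1)) : ℝ) *
        ((n * ((J : ℝ) / 2) - b) + J / 2 * Real.sqrt n) := by
  set T := (range n).image (fun j => idx j (r / M ^ j)) with hT
  have hcard : T.card = n := by rw [hT, Finset.card_image_of_injOn hidx, card_range]
  have h := sum_pos_part (J := J) T (b := b) (by rw [hcard]; exact hb)
  rw [hcard] at h
  refine le_trans (le_of_eq ?_) h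
  refine Finset.sum_congr rfl fun ω _ => ?_
  rw [hT, Finset.sum_image hidx]
  rfl

/-- The same, averaged over the leaves with nonnegative weights of sum `W`. -/
theorem lineage_pos_part_avg {ι : Type*} [Fintype ι] [DecidableEq ι] {J : ℕ} (M n t : ℕ)
    (idx : ℕ → ℕ → ι)
    (hidx : ∀ r < M ^ n, Set.InjOn (fun j => idx j ((M ^ n * t + r) / M ^ j)) (range n : Set ℕ))
    (w : ℕ → ℝ) (hw : ∀ r, 0 ≤ w r) {b : ℝ} (hb : b ≤ n * ((J : ℝ) / 2)) :
    ∑ ω : ι → Fin (J + 1), ∑ r ∈ range (M ^ n), w r *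
        max ((lineage M (fun j s => (ω (idx j s) : ℕ)) n (M ^ n * t + r) : ℝ) - b) 0 ≤
      (Fintype.card (ι → Fin (J + 1)) : ℝ) * ((∑ r ∈ range (M ^ n), w r) *
        ((n * ((J : ℝ) / 2) - b) + J / 2 * Real.sqrt n)) := by
  rw [Finset.sum_comm, Finset.sum_mul, Finset.mul_sum]
  refine Finset.sum_le_sum fun r hr => ?_
  rw [← Finset.mul_sum]
  have h := lineage_pos_part M n (M ^ n * t + r) idx (hidx r (Finset.mem_range.1 hr)) hb
  calc _ ≤ w r * ((Fintype.card (ι → Fin (J + 1)) : ℝ) *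
        ((n * ((J : ℝ) / 2) - b) + J / 2 * Real.sqrt n)) := mul_le_mul_of_nonneg_left h (hw r)
    _ = _ := by ring

end Vale.Agent.P315.H927
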