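import Vale.Agent.P315.H927.Val
import Vale.Agent.P315.C.Alg

/-! The index sums `Xi` of `C/Alg.lean` in terms of `shift` and `lineage`. -/

set_option autoImplicit false

namespace Vale.Agent.P315.H927

open Finset Vale.Agent.P315.Q976 Vale.Agent.P315.C

/-- Jitter of the slab `s` of level `j`, for the random data of `C/Alg.lean`. -/
def jit (M : ℕ) (ω : Rnd) (j s : ℕ) : ℕ := ω.xi (j + 1) (s % M)

theorem Xi_eq_shift (P : Par) (ω : Rnd) (hM : 0 < P.M) {j e : ℕ} (he : e ≤ j) (i m : ℕ) :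
    Xi P ω j e m = shift P.M (jit P.M ω) (j - e) e (i * P.M ^ e + m) := by
  unfold Xi shift jit
  rw [← Finset.sum_range_reflect]
  refine Finset.sum_congr rfl fun k hk => ?_
  have hk' := Finset.mem_range.1 hk
  have e1 : j - (e - 1 - k) = j - e + k + 1 := by omega
  have e2 : e - 1 - (e - 1 - k) = k := by omega
  rw [e1, e2]
  congr 1
  have e3 : P.M ^ e = P.M ^ k * P.M ^ (e - k) := by rw [← pow_add]; congr 1; omega
  have e4 : P.M ^ (e - k) = P.M * P.M ^ (e - k - 1) := by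
    rw [← pow_succ']; congr 1; omega
  have e5 : i * P.M ^ e + m = P.M ^ k * (i * P.M ^ (e - k)) + m := by rw [e3]; ring
  rw [e5, Nat.mul_add_div (pow_pos hM k), e4]
  rw [show i * (P.M * P.M ^ (e - k - 1)) = P.M * (i * P.M ^ (e - k - 1)) by ring,
    Nat.mul_add_mod]

theorem Xi_one (P : Par) (ω : Rnd) (j m : ℕ) : Xi P ω j 1 m = ω.xi j (m % P.M) := by
  simp [Xi]

theorem Xi_eq_lineage (P : Par) (ω : Rnd) (hM : 0 < P.M) (n i m : ℕ) :
    Xi P ω n n m = lineage P.M (jit P.M ω) n (i * P.M ^ n + m) := by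
  rw [Xi_eq_shift P ω hM le_rfl i m]
  unfold shift lineage
  simp

/-- Splitting of `Xi`. -/
theorem Xi_add (P : Par) (ω : Rnd) (hM : 0 < P.M) {j e f : ℕ} (he : e + f ≤ j) (m m' : ℕ)
    (hm' : m' < P.M ^ f) :
    Xi P ω j (e + f) (m * P.M ^ f + m') = Xi P ω j e m + Xi P ω (j - e) f m' := by
  rw [Xi_eq_shift P ω hM he 0, Xi_eq_shift P ω hM (by omega : e ≤ j) 0,
    Xi_eq_shift P ω hM (by omega : f ≤ j - e) m]
  unfold shift
  rw [show e + f = f + e by ring, Finset.sum_range_add, add_comm]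
  have e1 : j - (f + e) = j - e - f := by omega
  rw [e1]
  congr 1
  · refine Finset.sum_congr rfl fun k _ => ?_
    have e2 : (0 * P.M ^ (f + e) + (m * P.M ^ f + m')) / P.M ^ (f + k) =
        (0 * P.M ^ e + m) / P.M ^ k := by
      rw [zero_mul, zero_add, zero_mul, zero_add, pow_add, ← Nat.div_div_eq_div_mul]
      congr 1
      rw [mul_comm, Nat.mul_add_div (pow_pos hM f), Nat.div_eq_of_lt hm', add_zero]
    rw [e2]
    congr 1
    omega
  · refine Finset.sum_congr rfl fun k _ => ?_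
    rw [zero_mul, zero_add]

/-- Index type of the jitter seeds: parent level `1, …, n` (here `j < n` stands for level `j + 1`)
and child number. -/
abbrev JI (n M : ℕ) := Fin n × Fin M

/-- The index of the seed used by the slab `s` of level `j`. -/
def jidx (n M : ℕ) (hn : 0 < n) (hM : 0 < M) (j s : ℕ) : JI n M :=
  (⟨j % n, Nat.mod_lt _ hn⟩, ⟨s % M, Nat.mod_lt _ hM⟩)

theorem jidx_inj (n M : ℕ) (hn : 0 < n) (hM : 0 < M) (r : ℕ) :
    Set.InjOn (fun j => jidx n M hn hM j (r / M ^ j)) (range n : Set ℕ) := by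
  intro j hj j' hj' h
  have hj1 := Finset.mem_range.1 (Finset.mem_coe.1 hj)
  have hj2 := Finset.mem_range.1 (Finset.mem_coe.1 hj')
  simp only [jidx, Prod.mk.injEq, Fin.mk.injEq] at h
  rw [Nat.mod_eq_of_lt hj1, Nat.mod_eq_of_lt hj2] at h
  exact h.1

/-- The jitters of `C/Alg.lean` from a seed. -/
def xiOf (n M J : ℕ) (ω : JI n M → Fin (J + 1)) (j m : ℕ) : ℕ :=
  if h : 1 ≤ j ∧ j ≤ n ∧ m < M then (ω (⟨j - 1, by omega⟩, ⟨m, h.2.2⟩) : ℕ) else 0

theorem xiOf_le (n M J : ℕ) (ω : JI n M → Fin (J + 1)) (j m : ℕ) : xiOf n M J ω j m ≤ J := by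
  unfold xiOf
  split_ifs with h
  · have := (ω (⟨j - 1, by omega⟩, ⟨m, h.2.2⟩)).2
    omega
  · exact Nat.zero_le _

theorem xiOf_succ {n M J : ℕ} (hn : 0 < n) (hM : 0 < M) (ω : JI n M → Fin (J + 1)) {j : ℕ}
    (hj : j < n) (s : ℕ) : xiOf n M J ω (j + 1) (s % M) = (ω (jidx n M hn hM j s) : ℕ) := by
  unfold xiOf jidx
  rw [dif_pos ⟨by omega, by omega, Nat.mod_lt _ hM⟩]
  simp only [Nat.add_sub_cancel, Nat.mod_eq_of_lt hj]

/-- The leaf sum of the random data whose jitters come from the seed `w`. -/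
theorem Xi_seed {n J : ℕ} (P : Par) (ω : Rnd) (hn : 0 < n) (hM : 0 < P.M)
    (w : JI n P.M → Fin (J + 1)) (hw : ω.xi = xiOf n P.M J w) (i m : ℕ) :
    Xi P ω n n m =
      lineage P.M (fun j s => (w (jidx n P.M hn hM j s) : ℕ)) n (i * P.M ^ n + m) := by
  rw [Xi_eq_lineage P ω hM n i m]
  unfold lineage
  refine Finset.sum_congr rfl fun j hj => ?_
  unfold jit
  rw [hw, xiOf_succ hn hM w (Finset.mem_range.1 hj)]

/-- **Mean overshoot of a leaf** in the notation of `C/Alg.lean`. -/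
theorem Xi_pos_part {n J : ℕ} (P : Par) (hn : 0 < n) (hM : 0 < P.M)
    (mk : (JI n P.M → Fin (J + 1)) → Rnd) (hmk : ∀ w, (mk w).xi = xiOf n P.M J w) (m : ℕ)
    {b : ℝ} (hb : b ≤ n * ((J : ℝ) / 2)) :
    ∑ w : JI n P.M → Fin (J + 1), max ((Xi P (mk w) n n m : ℝ) - b) 0 ≤
      (Fintype.card (JI n P.M → Fin (J + 1)) : ℝ) *
        ((n * ((J : ℝ) / 2) - b) + J / 2 * Real.sqrt n) := by
  have h := lineage_pos_part (J := J) P.M n m (jidx n P.M hn hM) (jidx_inj n P.M hn hM m) hb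
  refine le_trans (le_of_eq ?_) h
  refine Finset.sum_congr rfl fun w _ => ?_
  rw [Xi_seed P (mk w) hn hM w (hmk w) 0 m, zero_mul, zero_add]

end Vale.Agent.P315.H927
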