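import Vale.Agent.P315.H808.AlgAlong
import Vale.Agent.P315.H808.SysOf
import Vale.Agent.P315.H927.XiGlue

/-! The static shift of a leaf along a comparison path: sum of the jitters on the lineage plus a
part which does not depend on the seeds; mean of its positive part. -/

set_option autoImplicit false

namespace Vale.Agent.P315.H927

open Finset Vale.Agent.P315.Q976 Vale.Agent.P315.C Vale.Agent.P315.H808 Vale.Agent.P315.Acc

section

variable {P : Par} {vis hid : Leaf} {n : ℕ} (K : Chain P vis hid n)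

/-- Sum of the penalties on the lineage of the row `x`. -/
def penSum (x : ℕ) : ℕ :=
  ∑ l ∈ range n, P.pen (l + 1) 1 (K.lab (l + 1) (x / P.M ^ (l + 1))) (K.lab l (x / P.M ^ l))

/-- If the penalties telescope, their sum is the difference of the end values. -/
theorem penSum_tele (D1 : ℕ) (acc : ℕ → ℕ) (x : ℕ)
    (h : ∀ l < n, acc (K.lab (l + 1) (x / P.M ^ (l + 1))) ≤ acc (K.lab l (x / P.M ^ l)))
    (hp : ∀ l < n, P.pen (l + 1) 1 (K.lab (l + 1) (x / P.M ^ (l + 1))) (K.lab l (x / P.M ^ l)) =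
      D1 * (acc (K.lab l (x / P.M ^ l)) - acc (K.lab (l + 1) (x / P.M ^ (l + 1))))) :
    penSum K x + D1 * acc (K.lab n (x / P.M ^ n)) = D1 * acc (K.lab 0 (x / P.M ^ 0)) := by
  unfold penSum
  rw [sum_congr rfl fun l hl => hp l (mem_range.1 hl)]
  clear hp
  have key : ∀ k ≤ n, ∑ l ∈ range k,
      D1 * (acc (K.lab l (x / P.M ^ l)) - acc (K.lab (l + 1) (x / P.M ^ (l + 1)))) +
        D1 * acc (K.lab k (x / P.M ^ k)) = D1 * acc (K.lab 0 (x / P.M ^ 0)) := by
    intro k
    induction k with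
    | zero => intro _; simp
    | succ k ih =>
      intro hk
      have h1 := ih (by omega)
      have h2 := h k (by omega)
      rw [sum_range_succ, ← h1]
      set a := acc (K.lab k (x / P.M ^ k)) with ha
      set b := acc (K.lab (k + 1) (x / P.M ^ (k + 1))) with hb
      have h3 : D1 * a = D1 * b + D1 * (a - b) := by
        rw [← mul_add, Nat.add_sub_cancel' h2]
      omega
  exact key n le_rfl

theorem S_zero (mc : Mach) (ω : Rnd) (h0 : ∃ p, P.μ ∣ p ∧ p ≤ P.B ∧ P.adm p p)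
    (hle : ∀ i p q, P.adm p q → hid i p q ≤ vis i p q) (x : ℕ) :
    (K.along mc ω h0 hle).S 0 x = lineage P.M (jit P.M ω) n x + penSum K x := by
  unfold Along.S lineage penSum
  rw [← sum_add_distrib, Nat.Ico_zero_eq_range]
  refine sum_congr rfl fun l _ => ?_
  show ω.xi (l + 1) (x / P.M ^ l % P.M) + P.pen (l + 1) 1 (K.lab (l + 1) (x / P.M ^ l / P.M))
    (K.lab l (x / P.M ^ l)) = _
  rw [pow_succ, ← Nat.div_div_eq_div_mul]
  rfl

/-- The same with the jitters read from a seed. -/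
theorem S_zero_seed {J : ℕ} (mc : Mach) (ω : Rnd) (hn : 0 < n) (hM : 0 < P.M)
    (w : JI n P.M → Fin (J + 1)) (hw : ω.xi = xiOf n P.M J w)
    (h0 : ∃ p, P.μ ∣ p ∧ p ≤ P.B ∧ P.adm p p)
    (hle : ∀ i p q, P.adm p q → hid i p q ≤ vis i p q) (x : ℕ) :
    (K.along mc ω h0 hle).S 0 x =
      lineage P.M (fun j s => (w (jidx n P.M hn hM j s) : ℕ)) n x + penSum K x := by
  rw [S_zero]
  congr 1
  unfold lineage
  refine sum_congr rfl fun j hj => ?_
  unfold jit
  rw [hw, xiOf_succ hn hM w (mem_range.1 hj)]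

/-- **Mean overshoot of the static shift of one leaf.** -/
theorem mean_S {J : ℕ} (hn : 0 < n) (hM : 0 < P.M)
    (mc : (JI n P.M → Fin (J + 1)) → Mach) (mk : (JI n P.M → Fin (J + 1)) → Rnd)
    (hmk : ∀ w, (mk w).xi = xiOf n P.M J w)
    (h0 : ∃ p, P.μ ∣ p ∧ p ≤ P.B ∧ P.adm p p)
    (hle : ∀ i p q, P.adm p q → hid i p q ≤ vis i p q) (x : ℕ) {lo : ℝ}
    (hlo : lo ≤ n * ((J : ℝ) / 2)) :
    ∑ w : JI n P.M → Fin (J + 1), max 0 (((K.along (mc w) (mk w) h0 hle).S 0 x : ℝ) - lo) ≤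
      (Fintype.card (JI n P.M → Fin (J + 1)) : ℝ) *
        ((n * ((J : ℝ) / 2) - lo) + J / 2 * Real.sqrt n + penSum K x) := by
  have h := lineage_pos_part (J := J) P.M n x (jidx n P.M hn hM) (jidx_inj n P.M hn hM x) hlo
  have h1 : ∀ w : JI n P.M → Fin (J + 1),
      max 0 (((K.along (mc w) (mk w) h0 hle).S 0 x : ℝ) - lo) ≤
        max ((lineage P.M (fun j s => (w (jidx n P.M hn hM j s) : ℕ)) n x : ℝ) - lo) 0 +
          penSum K x := by
    intro w
    rw [S_zero_seed K (mc w) (mk w) hn hM w (hmk w) h0 hle x]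
    push_cast
    have h2 : (0 : ℝ) ≤ (penSum K x : ℝ) := Nat.cast_nonneg _
    refine max_le ?_ ?_
    · have := le_max_right
        ((lineage P.M (fun j s => (w (jidx n P.M hn hM j s) : ℕ)) n x : ℝ) - lo) 0
      linarith
    · have := le_max_left
        ((lineage P.M (fun j s => (w (jidx n P.M hn hM j s) : ℕ)) n x : ℝ) - lo) 0
      linarith
  refine (sum_le_sum fun w _ => h1 w).trans ?_
  rw [sum_add_distrib, sum_const, card_univ, nsmul_eq_mul, mul_add]
  exact add_le_add h le_rfl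

/-- **Mean over the seeds of the weighted mean over the leaves** of the positive part of the
static shift minus the cut. `lo` may be any real number below the mean of the jitter sum. -/
theorem mean_EE_S {J : ℕ} (hn : 0 < n) (hM : 0 < P.M) [Nonempty (Fin (P.M ^ n))]
    (mc : (JI n P.M → Fin (J + 1)) → Mach) (mk : (JI n P.M → Fin (J + 1)) → Rnd)
    (hmk : ∀ w, (mk w).xi = xiOf n P.M J w)
    (h0 : ∃ p, P.μ ∣ p ∧ p ≤ P.B ∧ P.adm p p)
    (hle : ∀ i p q, P.adm p q → hid i p q ≤ vis i p q) {lo : ℝ}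
    (hlo : lo ≤ n * ((J : ℝ) / 2)) (wt : Fin (P.M ^ n) → ℝ) (hwt : ∀ x, 0 < wt x) :
    ∑ w : JI n P.M → Fin (J + 1),
        EE wt (fun x => max 0 (((K.along (mc w) (mk w) h0 hle).S 0 x : ℝ) - lo)) ≤
      (Fintype.card (JI n P.M → Fin (J + 1)) : ℝ) *
        ((n * ((J : ℝ) / 2) - lo) + J / 2 * Real.sqrt n +
          EE wt (fun x => (penSum K x : ℝ))) := by
  have e1 : ∑ w : JI n P.M → Fin (J + 1),
      EE wt (fun x => max 0 (((K.along (mc w) (mk w) h0 hle).S 0 x : ℝ) - lo)) =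
      EE wt (fun x => ∑ w : JI n P.M → Fin (J + 1),
        max 0 (((K.along (mc w) (mk w) h0 hle).S 0 x : ℝ) - lo)) := by
    rw [EE_sum]
  rw [e1]
  refine (EE_mono hwt fun x => mean_S K hn hM mc mk hmk h0 hle x hlo).trans ?_
  rw [EE_mul_left, EE_add, EE_const hwt]

end

end Vale.Agent.P315.H927
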